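import Vale.Agent.P327.Main

namespace Vale.Agent.Results.P327.Rigid

open Vale.Agent.P327

theorem result (π : Degree → Degree) (hbij : Function.Bijective π)
    (hord : ∀ a b : Degree, DLe a b ↔ DLe (π a) (π b)) : ∀ a : Degree, π a = a := by
  intro a
  exact rigid { Equiv.ofBijective π hbij with map_rel_iff' := fun {a b} => (hord a b).symm } a

end Vale.Agent.Results.P327.Rigid
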